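import Vale.Agent.Lib.P154Anti.Cert.D9.Table0
import Vale.Agent.Lib.P154Anti.Cert.D9.Masses

namespace Vale.Agent.Lib.P154Anti.Cert.D9

open Vale.Agent.Lib.P154Anti

theorem L50 : lvlOK3 cfg par tblI0 tblE0 vE vc Q50 17591032159537 Q51 = true := by decide +kernel

theorem L51 : lvlOK3 cfg par tblI0 tblE0 vE vc Q51 17591002806719 Q52 = true := by decide +kernel

theorem L52 : lvlOK3 cfg par tblI0 tblE0 vE vc Q52 17591113872612 Q53 = true := by decide +kernel

theorem L53 : lvlOK3 cfg par tblI0 tblE0 vE vc Q53 17590994607472 Q54 = true := by decide +kernel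

theorem L54 : lvlOK3 cfg par tblI0 tblE0 vE vc Q54 17591154393162 Q55 = true := by decide +kernel

theorem L55 : lvlOK3 cfg par tblI0 tblE0 vE vc Q55 17590958697300 Q56 = true := by decide +kernel

theorem L56 : lvlOK3 cfg par tblI0 tblE0 vE vc Q56 17590964640170 Q57 = true := by decide +kernel

theorem L57 : lvlOK3 cfg par tblI0 tblE0 vE vc Q57 17591093846104 Q58 = true := by decide +kernel

theorem L58 : lvlOK3 cfg par tblI0 tblE0 vE vc Q58 17591149857278 Q59 = true := by decide +kernel

theorem L59 : lvlOK3 cfg par tblI0 tblE0 vE vc Q59 17591003323144 Q60 = true := by decide +kernel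

end Vale.Agent.Lib.P154Anti.Cert.D9
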