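import Vale.Agent.Lib.P154Anti.Cert.D9.Table0
import Vale.Agent.Lib.P154Anti.Cert.D9.Masses

namespace Vale.Agent.Lib.P154Anti.Cert.D9

open Vale.Agent.Lib.P154Anti

theorem L70 : lvlOK3 cfg par tblI0 tblE0 vE vc Q70 17591167427545 Q71 = true := by decide +kernel

theorem L71 : lvlOK3 cfg par tblI0 tblE0 vE vc Q71 17590942484270 Q72 = true := by decide +kernel

theorem L72 : lvlOK3 cfg par tblI0 tblE0 vE vc Q72 17591163185703 Q73 = true := by decide +kernel

theorem L73 : lvlOK3 cfg par tblI0 tblE0 vE vc Q73 17591242871303 Q74 = true := by decide +kernel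

theorem L74 : lvlOK3 cfg par tblI0 tblE0 vE vc Q74 17591393814644 Q75 = true := by decide +kernel

theorem L75 : lvlOK3 cfg par tblI0 tblE0 vE vc Q75 17591093529967 Q76 = true := by decide +kernel

theorem L76 : lvlOK3 cfg par tblI0 tblE0 vE vc Q76 17591196409623 Q77 = true := by decide +kernel

theorem L77 : lvlOK3 cfg par tblI0 tblE0 vE vc Q77 17591059165202 Q78 = true := by decide +kernel

theorem L78 : lvlOK3 cfg par tblI0 tblE0 vE vc Q78 17590987920533 Q79 = true := by decide +kernel

theorem L79 : lvlOK3 cfg par tblI0 tblE0 vE vc Q79 17590836519071 Q80 = true := by decide +kernel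

end Vale.Agent.Lib.P154Anti.Cert.D9
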