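import Vale.Agent.Lib.P154Anti.Cert.D9.Table0
import Vale.Agent.Lib.P154Anti.Cert.D9.Masses

namespace Vale.Agent.Lib.P154Anti.Cert.D9

open Vale.Agent.Lib.P154Anti

theorem L80 : lvlOK3 cfg par tblI0 tblE0 vE vc Q80 17591108889418 Q81 = true := by decide +kernel

end Vale.Agent.Lib.P154Anti.Cert.D9
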